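import Vale.Agent.P125.Chain

/-!
# P125: the summing operator has sublinear Markov growth

For a finite stationary reversible chain and a map `F` from its states to sequences
`F x 0, ..., F x n` such that every edge moves `F` by total variation at most one,
the expected oscillation of `F (Z t) - F (Z 0)` at time `t = 2 ^ J` is at most
`(64 / J) ^ (1 / 4) * t`, uniformly in `n` and in the chain.
-/

namespace Vale.Agent.Results.P125.SummingChain

open Vale.Agent.P125

theorem result {S : Type*} [Fintype S] [DecidableEq S] (π : S → ℝ) (P : Matrix S S ℝ)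
    (hπ : ∀ x, 0 ≤ π x) (hπ1 : ∑ x, π x = 1)
    (hP : ∀ x y, 0 ≤ P x y) (hP1 : ∀ x, ∑ y, P x y = 1)
    (hrev : ∀ x y, π x * P x y = π y * P y x) (n : ℕ) (F : S → ℕ → ℝ)
    (hF : ∀ x y, P x y ≠ 0 → tv n (fun i => F y i - F x i) ≤ 1) (J : ℕ) :
    (J : ℝ) * (∑ x, ∑ y, π x * (P ^ (2 ^ J)) x y * osc n (fun i => F y i - F x i)) ^ 4
      ≤ 64 * ((2 : ℝ) ^ J) ^ 4 :=
  main_bound π P hπ hπ1 hP hP1 hrev n F hF J

end Vale.Agent.Results.P125.SummingChain
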