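import Vale.Agent.P125.EnergyChain

/-!
# P125: the summing operator has sublinear Markov growth under an energy bound

For a finite stationary reversible chain and a map `F` from its states to sequences
`F x 0, ..., F x n` such that the expected square of the total variation of
`F (Z 1) - F (Z 0)` is at most one, the expected oscillation of `F (Z t) - F (Z 0)`
is at most `(65568 / J) ^ (1 / 6) * t` whenever `4 ^ J ≤ t`, uniformly in `n` and the chain.
-/

namespace Vale.Agent.Results.P125.SummingChainEnergy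

open Vale.Agent.P125

theorem result {S : Type*} [Fintype S] [DecidableEq S] (π : S → ℝ) (P : Matrix S S ℝ)
    (hπ : ∀ x, 0 ≤ π x) (hπ1 : ∑ x, π x = 1)
    (hP : ∀ x y, 0 ≤ P x y) (hP1 : ∀ x, ∑ y, P x y = 1)
    (hrev : ∀ x y, π x * P x y = π y * P y x) (n : ℕ) (F : S → ℕ → ℝ)
    (hF : ∑ x, ∑ y, π x * P x y * (tv n (fun i => F y i - F x i)) ^ 2 ≤ 1) (t J : ℕ)
    (hJ : 4 ^ J ≤ t) :
    (J : ℝ) * (∑ x, ∑ y, π x * (P ^ t) x y * osc n (fun i => F y i - F x i)) ^ 6
      ≤ 65568 * (t : ℝ) ^ 6 :=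
  energy_all_times π P hπ hπ1 hP hP1 hrev n F hF t J hJ

end Vale.Agent.Results.P125.SummingChainEnergy
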