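import Vale.Agent.P125.EnergyP

/-!
# P125: the summing operator has sublinear Markov growth under an `L ^ p` energy bound

For a finite stationary reversible chain, `m ≥ 1`, `p = 1 + 1 / m`, and a map `F` from its
states to sequences `F x 0, ..., F x n` such that the expected `p`-th power of the total
variation of `F (Z 1) - F (Z 0)` is at most one, the expected oscillation of
`F (Z t) - F (Z 0)` is sublinear in `t` with an explicit rate, uniformly in `n` and the chain.
-/

namespace Vale.Agent.Results.P125.SummingChainLp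

open Vale.Agent.P125

theorem result {S : Type*} [Fintype S] [DecidableEq S] (π : S → ℝ) (P : Matrix S S ℝ)
    (hπ : ∀ x, 0 ≤ π x) (hπ1 : ∑ x, π x = 1)
    (hP : ∀ x y, 0 ≤ P x y) (hP1 : ∀ x, ∑ y, P x y = 1)
    (hrev : ∀ x y, π x * P x y = π y * P y x) (n : ℕ) (F : S → ℕ → ℝ)
    (m : ℕ) (hm : 1 ≤ m)
    (hF : ∑ x, ∑ y, π x * P x y * (tv n (fun i => F y i - F x i)) ^ (1 + 1 / (m : ℝ)) ≤ 1)
    (t J : ℕ) (hJ : 4 ^ J ≤ t) :
    (J : ℝ) * (∑ x, ∑ y, π x * (P ^ t) x y * osc n (fun i => F y i - F x i)) ^ (2 * m + 4)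
      ≤ 2 ^ (5 * m + 12) * (t : ℝ) ^ (2 * m + 4) :=
  energyP_all_times π P hπ hπ1 hP hP1 hrev n F m hm hF t J hJ

end Vale.Agent.Results.P125.SummingChainLp
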